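import Vale.Agent.P181.H305.Rows

set_option autoImplicit false

namespace Vale.Agent.P181.H305

open Finset H303

theorem rowRES (h1 : RowRES1) (h3 : RowRES3) : RowRES := by
  intro A _ _ a q S J F hq hsy L hL cl hcl P w f B Ω ε μ hB hΩ hε hμ hf hw hrep Ct hP hCf hm hF
  let l0 : Fin q := ⟨0, hq⟩
  let s : Fin a → ℕ := fun c => (univ.filter (fun i => cl i = c)).card
  have hsum : ∑ c, s c = a := by
    have := Finset.card_eq_sum_card_fiberwise (s := (univ : Finset (Fin a)))
      (t := (univ : Finset (Fin a))) (f := cl) (fun _ _ => by simp)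
    rw [Finset.card_univ, Fintype.card_fin] at this
    exact this.symm
  set ω := ε * (B * Ω ^ S) ^ q with hω
  have hω0 : 0 ≤ ω := by positivity
  set KK := (univ : Finset (Fin a → Fin q → Fin a)).filter (fun K => ∀ c,
      (univ.filter (fun p : Fin a × Fin q => K p.1 p.2 = c)).card = q * s c) with hKK
  let G : (Fin a → Fin q → Fin a) → ℂ := fun K =>
    ∑ j : Fin a → Fin J, (∏ c, w c (j c)) * F (fun r => ∏ l, f (K r l) (j (K r l)))
  have hG : ∑ K ∈ KK, G K = 0 := by
    simp only [G]
    rw [Finset.sum_comm]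
    refine Finset.sum_eq_zero fun j _ => ?_
    rw [← Finset.mul_sum, h1 A a q F L hL (fun c => f c (j c)) (fun c => hf c _)
      (fun c => q * s c), mul_zero]
  set N0 := ((univ : Finset (Fin a → Fin a)).filter (fun p => ∀ c,
      (univ.filter (fun r => p r = c)).card = s c)).card with hN0
  have hsplit := Finset.sum_filter_add_sum_filter_not KK (fun K => ∃ r l l', K r l ≠ K r l') G
  have hconst : ∑ K ∈ KK.filter (fun K => ¬ ∃ r l l', K r l ≠ K r l'), G K = N0 * F P := by
    have e1 : ∀ K ∈ KK.filter (fun K => ¬ ∃ r l l', K r l ≠ K r l'), G K = F P := by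
      intro K hK
      rw [Finset.mem_filter] at hK
      have hK1 : ∀ c, cont K c = q * (univ.filter (fun i => cl i = c)).card := by
        have := hK.1
        rw [hKK, Finset.mem_filter] at this
        exact this.2
      exact const_K l0 P f F hsy w K cl hK1 hrep hK.2
    rw [Finset.sum_congr rfl e1, Finset.sum_const, nsmul_eq_mul]
    congr 2
    refine Finset.card_nbij' (fun K r => K r l0) (fun p r _ => p r) ?_ ?_ ?_ ?_
    · intro K hK
      simp only [KK, coe_filter, Finset.mem_filter, mem_univ, true_and, Set.mem_ofPred_eq] at hK ⊢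
      obtain ⟨hK1, hK2⟩ := hK
      push Not at hK2
      intro c
      have hg : good K c := fun r l h l' => by rw [← h]; exact hK2 r l' l
      have h5 := cont_good K c hg
      unfold cont at h5
      rw [hK1 c] at h5
      have h6 := Nat.eq_of_mul_eq_mul_left hq h5
      rw [h6]
      congr 1
      ext r
      simp only [mem_filter, mem_univ, true_and]
      exact ⟨fun h l => by rw [hK2 r l l0, h], fun h => h l0⟩
    · intro p hp
      simp only [KK, coe_filter, Finset.mem_filter, mem_univ, true_and, Set.mem_ofPred_eq] at hp ⊢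
      refine ⟨fun c => ?_, by simp⟩
      have hg : good (fun r (_ : Fin q) => p r) c := fun r l h l' => h
      have h5 := cont_good (fun r (_ : Fin q) => p r) c hg
      unfold cont at h5
      rw [h5, ← hp c]
      congr 2
      ext r
      simp only [mem_filter, mem_univ, true_and]
      exact ⟨fun h => h l0, fun h _ => h⟩
    · intro K hK
      simp only [KK, coe_filter, Finset.mem_filter, mem_univ, true_and, Set.mem_ofPred_eq] at hK
      obtain ⟨hK1, hK2⟩ := hK
      push Not at hK2
      funext r l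
      exact hK2 r l0 l
    · intro p _
      rfl
  have hnon : ‖∑ K ∈ KK.filter (fun K => ∃ r l l', K r l ≠ K r l'), G K‖ ≤
      μ * (N0 * ((1 + (a : ℝ) ^ q * ω) ^ a - 1)) := by
    have e2 : ∀ K ∈ KK.filter (fun K => ∃ r l l', K r l ≠ K r l'),
        ‖G K‖ ≤ ω ^ (univ.filter (fun r => ∃ l l', K r l ≠ K r l')).card * μ := by
      intro K hK
      rw [Finset.mem_filter] at hK
      have hK1 : ∀ c, cont K c = q * (univ.filter (fun i => cl i = c)).card := by
        have := hK.1
        rw [hKK, Finset.mem_filter] at this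
        exact this.2
      exact bound_K l0 P f F w K (fun c => univ.filter (fun i => cl i = c)) S hcl hK1 B Ω ε μ hB
        hΩ hε hμ hw hrep Ct hP hCf hm hF
    refine (norm_sum_le _ _).trans ((Finset.sum_le_sum e2).trans ?_)
    rw [← Finset.sum_mul, mul_comm]
    refine mul_le_mul_of_nonneg_left ?_ hμ
    have h5 := h3 a q ω hq hω0 s hsum
    rw [hKK, Finset.filter_filter]
    exact h5
  have hN0pos : (0:ℝ) < N0 := by
    rw [hN0]
    refine Nat.cast_pos.mpr (Finset.card_pos.mpr ⟨cl, ?_⟩)
    simp [s]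
  have h6 : (N0 : ℂ) * F P = - ∑ K ∈ KK.filter (fun K => ∃ r l l', K r l ≠ K r l'), G K := by
    rw [← hconst]
    rw [hG] at hsplit
    linear_combination hsplit
  have h7 : (N0 : ℝ) * ‖F P‖ ≤ μ * (N0 * ((1 + (a : ℝ) ^ q * ω) ^ a - 1)) := by
    have : ‖(N0 : ℂ) * F P‖ = (N0 : ℝ) * ‖F P‖ := by
      rw [norm_mul, Complex.norm_natCast]
    rw [← this, h6, norm_neg]
    exact hnon
  have h8 : (N0 : ℝ) * ‖F P‖ ≤ N0 * (μ * ((1 + (a : ℝ) ^ q * ω) ^ a - 1)) := by
    linarith [mul_left_comm μ (N0 : ℝ) ((1 + (a : ℝ) ^ q * ω) ^ a - 1)]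
  exact le_of_mul_le_mul_left h8 hN0pos

end Vale.Agent.P181.H305
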