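import Vale.Agent.P181.H303.Spec

set_option autoImplicit false

namespace Vale.Agent.P181.H305

open Finset

open Classical in
/-- Sum over the states of all classes, when the classes in `D` may be resummed exactly. -/
theorem states (J : ℕ) (B : ℝ) (hB : 0 ≤ B) : ∀ (n : ℕ) (Ψ : (Fin n → Option (Fin J)) → ℂ)
    (D : Fin n → Prop) (w : Fin n → Fin J → ℂ) (M : ℝ), 0 ≤ M → (∀ c, ∑ j, ‖w c j‖ ≤ B) →
    (∀ c, D c → ∀ σ, ∑ i, w c i * Ψ (Function.update σ c (some i)) =
      Ψ (Function.update σ c none)) →
    (∀ σ, (∀ c, D c → σ c = none) → (∀ c, ¬ D c → σ c ≠ none) → ‖Ψ σ‖ ≤ M) →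
    ‖∑ j : Fin n → Fin J, (∏ c, w c (j c)) * Ψ (fun c => some (j c))‖ ≤
      (∏ c, if D c then 1 else B) * M := by
  intro n
  induction n with
  | zero =>
    intro Ψ D w M hM hw hrep hΨ
    simp only [Finset.univ_unique, Finset.sum_singleton, Finset.univ_eq_empty, Finset.prod_empty,
      one_mul]
    exact hΨ _ (fun c => c.elim0) (fun c => c.elim0)
  | succ n ih =>
    intro Ψ D w M hM hw hrep hΨ
    have key : ∀ (x : Fin J) (j : Fin n → Fin J),
        (fun c => some ((Fin.cons x j : Fin (n+1) → Fin J) c)) =
          (Fin.cons (some x) (fun c => some (j c)) : Fin (n+1) → Option (Fin J)) := by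
      intro x j
      funext c
      refine Fin.cases ?_ (fun c => ?_) c
      · simp
      · simp
    rw [← (Fin.consEquiv (fun _ => Fin J)).sum_comp, Fintype.sum_prod_type]
    have e1 : ∀ (x : Fin J) (j : Fin n → Fin J),
        (∏ c, w c ((Fin.consEquiv (fun _ => Fin J)) (x, j) c)) *
          Ψ (fun c => some ((Fin.consEquiv (fun _ => Fin J)) (x, j) c)) =
        w 0 x * ((∏ c : Fin n, w c.succ (j c)) * Ψ (Fin.cons (some x) (fun c => some (j c)))) := by
      intro x j
      have : (Fin.consEquiv (fun _ => Fin J)) (x, j) = (Fin.cons x j : Fin (n+1) → Fin J) := rfl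
      rw [this, key, Fin.prod_univ_succ]
      simp only [Fin.cons_zero, Fin.cons_succ]
      ring
    simp only [e1]
    rw [Fin.prod_univ_succ]
    by_cases h0 : D 0
    · rw [Finset.sum_comm, if_pos h0, one_mul]
      have e2 : ∀ j : Fin n → Fin J,
          ∑ x, w 0 x * ((∏ c : Fin n, w c.succ (j c)) * Ψ (Fin.cons (some x) (fun c => some (j c)))) =
          (∏ c : Fin n, w c.succ (j c)) * Ψ (Fin.cons none (fun c => some (j c))) := by
        intro j
        have h := hrep 0 h0 (Fin.cons none (fun c => some (j c)))
        simp only [Fin.update_cons_zero] at h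
        rw [← h, Finset.mul_sum]
        refine Finset.sum_congr rfl fun x _ => ?_
        ring
      simp only [e2]
      refine ih (fun σ => Ψ (Fin.cons none σ)) (fun c => D c.succ) (fun c => w c.succ) M hM
        (fun c => hw _) ?_ ?_
      · intro c hc σ
        have h := hrep c.succ hc (Fin.cons none σ)
        simp only [← Fin.cons_update] at h
        exact h
      · intro σ h1 h2
        refine hΨ _ ?_ ?_
        · intro c
          refine Fin.cases ?_ (fun c => ?_) c
          · intro _; simp
          · intro hc; simpa using h1 c hc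
        · intro c
          refine Fin.cases ?_ (fun c => ?_) c
          · intro h; exact absurd h0 h
          · intro hc; simpa using h2 c hc
    · rw [if_neg h0]
      have e3 : ∀ x : Fin J, ‖∑ j : Fin n → Fin J,
          ((∏ c : Fin n, w c.succ (j c)) * Ψ (Fin.cons (some x) (fun c => some (j c))))‖ ≤
          (∏ c : Fin n, if D c.succ then 1 else B) * M := by
        intro x
        refine ih (fun σ => Ψ (Fin.cons (some x) σ)) (fun c => D c.succ) (fun c => w c.succ) M hM
          (fun c => hw _) ?_ ?_
        · intro c hc σ
          have h := hrep c.succ hc (Fin.cons (some x) σ)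
          simp only [← Fin.cons_update] at h
          exact h
        · intro σ h1 h2
          refine hΨ _ ?_ ?_
          · intro c
            refine Fin.cases ?_ (fun c => ?_) c
            · intro h; exact absurd h h0
            · intro hc; simpa using h1 c hc
          · intro c
            refine Fin.cases ?_ (fun c => ?_) c
            · intro h; simp
            · intro hc; simpa using h2 c hc
      have hX : 0 ≤ (∏ c : Fin n, if D c.succ then 1 else B) * M := by
        refine mul_nonneg (Finset.prod_nonneg fun c _ => ?_) hM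
        split_ifs
        · exact zero_le_one
        · exact hB
      simp only [← Finset.mul_sum]
      calc ‖∑ x, w 0 x * ∑ j : Fin n → Fin J,
          ((∏ c : Fin n, w c.succ (j c)) * Ψ (Fin.cons (some x) (fun c => some (j c))))‖
          ≤ ∑ x, ‖w 0 x‖ * ((∏ c : Fin n, if D c.succ then 1 else B) * M) := by
            refine (norm_sum_le _ _).trans (Finset.sum_le_sum fun x _ => ?_)
            rw [norm_mul]
            exact mul_le_mul_of_nonneg_left (e3 x) (norm_nonneg _)
        _ = (∑ x, ‖w 0 x‖) * ((∏ c : Fin n, if D c.succ then 1 else B) * M) := by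
            rw [Finset.sum_mul]
        _ ≤ B * ((∏ c : Fin n, if D c.succ then 1 else B) * M) :=
            mul_le_mul_of_nonneg_right (hw 0) hX
        _ = _ := by ring

/-- All classes resummed. -/
theorem states_all (J : ℕ) : ∀ (n : ℕ) (Ψ : (Fin n → Option (Fin J)) → ℂ)
    (w : Fin n → Fin J → ℂ),
    (∀ c σ, ∑ i, w c i * Ψ (Function.update σ c (some i)) = Ψ (Function.update σ c none)) →
    ∑ j : Fin n → Fin J, (∏ c, w c (j c)) * Ψ (fun c => some (j c)) = Ψ (fun _ => none) := by
  intro n
  induction n with
  | zero =>
    intro Ψ w hrep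
    simp only [Finset.univ_unique, Finset.sum_singleton, Finset.univ_eq_empty, Finset.prod_empty,
      one_mul]
    congr 1
    funext c
    exact c.elim0
  | succ n ih =>
    intro Ψ w hrep
    have key : ∀ (x : Fin J) (j : Fin n → Fin J),
        (fun c => some ((Fin.cons x j : Fin (n+1) → Fin J) c)) =
          (Fin.cons (some x) (fun c => some (j c)) : Fin (n+1) → Option (Fin J)) := by
      intro x j
      funext c
      refine Fin.cases ?_ (fun c => ?_) c
      · simp
      · simp
    rw [← (Fin.consEquiv (fun _ => Fin J)).sum_comp, Fintype.sum_prod_type]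
    have e1 : ∀ (x : Fin J) (j : Fin n → Fin J),
        (∏ c, w c ((Fin.consEquiv (fun _ => Fin J)) (x, j) c)) *
          Ψ (fun c => some ((Fin.consEquiv (fun _ => Fin J)) (x, j) c)) =
        w 0 x * ((∏ c : Fin n, w c.succ (j c)) * Ψ (Fin.cons (some x) (fun c => some (j c)))) := by
      intro x j
      have : (Fin.consEquiv (fun _ => Fin J)) (x, j) = (Fin.cons x j : Fin (n+1) → Fin J) := rfl
      rw [this, key, Fin.prod_univ_succ]
      simp only [Fin.cons_zero, Fin.cons_succ]
      ring
    simp only [e1]
    rw [Finset.sum_comm]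
    have e2 : ∀ j : Fin n → Fin J,
        ∑ x, w 0 x * ((∏ c : Fin n, w c.succ (j c)) * Ψ (Fin.cons (some x) (fun c => some (j c)))) =
        (∏ c : Fin n, w c.succ (j c)) * Ψ (Fin.cons none (fun c => some (j c))) := by
      intro j
      have h := hrep 0 (Fin.cons none (fun c => some (j c)))
      simp only [Fin.update_cons_zero] at h
      rw [← h, Finset.mul_sum]
      refine Finset.sum_congr rfl fun x _ => ?_
      ring
    simp only [e2]
    rw [ih (fun σ => Ψ (Fin.cons none σ)) (fun c => w c.succ)]
    · congr 1
      funext c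
      refine Fin.cases ?_ (fun c => ?_) c
      · simp
      · simp
    · intro c σ
      have h := hrep c.succ (Fin.cons none σ)
      simp only [← Fin.cons_update] at h
      exact h

end Vale.Agent.P181.H305
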