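import Vale.Agent.P181.H303.Spec
import Vale.Agent.P181.H305.States

set_option autoImplicit false

namespace Vale.Agent.P181.H305

open Finset H303

/-- bijection between two finsets of the same size, as a function -/
theorem exists_bijOn {α : Type*} (R C : Finset α) (h : R.card = C.card) :
    ∃ g : α → α, Set.BijOn g R C := by
  classical
  let e := Finset.equivOfCardEq h
  refine ⟨fun r => if hr : r ∈ R then (e ⟨r, hr⟩ : α) else r, ?_, ?_, ?_⟩
  · intro r hr
    have hr' : r ∈ R := hr
    simp only [dif_pos hr']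
    exact (e ⟨r, hr'⟩).2
  · intro r hr r' hr' h
    have h1 : r ∈ R := hr
    have h2 : r' ∈ R := hr'
    simp only [dif_pos h1, dif_pos h2] at h
    have := e.injective (Subtype.ext h)
    simpa using this
  · intro c hc
    have hc' : c ∈ C := hc
    refine ⟨(e.symm ⟨c, hc'⟩ : α), (e.symm ⟨c, hc'⟩).2, ?_⟩
    simp

variable {A : Type} [CommRing A] [Algebra ℂ A] {a q J : ℕ}

/-- the value of the row `r` -/
noncomputable def row (l0 : Fin q) (P : Fin a → A) (f : Fin a → Fin J → A)
    (K : Fin a → Fin q → Fin a) (ρ : Fin a → Fin a) (σ : Fin a → Option (Fin J)) (r : Fin a) : A :=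
  if ∀ l, K r l = K r l0 then (σ (K r l0)).elim (P (ρ r)) (fun i => f (K r l0) i ^ q)
  else ∏ l, (σ (K r l)).elim 0 (fun i => f (K r l) i)

theorem row_some (l0 : Fin q) (P : Fin a → A) (f : Fin a → Fin J → A)
    (K : Fin a → Fin q → Fin a) (ρ : Fin a → Fin a) (j : Fin a → Fin J) (r : Fin a) :
    row l0 P f K ρ (fun c => some (j c)) r = ∏ l, f (K r l) (j (K r l)) := by
  unfold row
  split_ifs with h
  · simp only [Option.elim_some]
    rw [Finset.prod_congr rfl (fun l _ => by rw [h l])]
    simp
  · simp

theorem row_update_ne (l0 : Fin q) (P : Fin a → A) (f : Fin a → Fin J → A)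
    (K : Fin a → Fin q → Fin a) (ρ : Fin a → Fin a) (σ : Fin a → Option (Fin J)) (r c : Fin a)
    (x : Option (Fin J)) (h : ∀ l, K r l ≠ c) :
    row l0 P f K ρ (Function.update σ c x) r = row l0 P f K ρ σ r := by
  unfold row
  simp only [Function.update_of_ne (h _)]

theorem row_update_eq (l0 : Fin q) (P : Fin a → A) (f : Fin a → Fin J → A)
    (K : Fin a → Fin q → Fin a) (ρ : Fin a → Fin a) (σ : Fin a → Option (Fin J)) (r c : Fin a)
    (x : Option (Fin J)) (h : ∀ l, K r l = c) :
    row l0 P f K ρ (Function.update σ c x) r = x.elim (P (ρ r)) (fun i => f c i ^ q) := by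
  unfold row
  rw [if_pos (fun l => by rw [h l, h l0])]
  simp only [h l0, Function.update_self]

/-- `c` occurs in constant rows only. -/
def good (K : Fin a → Fin q → Fin a) (c : Fin a) : Prop := ∀ r l, K r l = c → ∀ l', K r l' = c

theorem rep_row (l0 : Fin q) (P : Fin a → A) (f : Fin a → Fin J → A)
    (F : MultilinearMap ℂ (fun _ : Fin a => A) ℂ) (w : Fin a → Fin J → ℂ)
    (K : Fin a → Fin q → Fin a) (ρ : Fin a → Fin a) (c : Fin a) (hc : good K c)
    (hrep : ∀ h : Fin a → A,
      ∑ j, w c j * F (fun r => if r ∈ univ.filter (fun r => ∀ l, K r l = c) then f c j ^ q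
        else h r) =
      F (fun r => if r ∈ univ.filter (fun r => ∀ l, K r l = c) then P (ρ r) else h r))
    (σ : Fin a → Option (Fin J)) :
    ∑ i, w c i * F (row l0 P f K ρ (Function.update σ c (some i))) =
      F (row l0 P f K ρ (Function.update σ c none)) := by
  have h := hrep (row l0 P f K ρ σ)
  have e1 : ∀ x : Option (Fin J), row l0 P f K ρ (Function.update σ c x) =
      fun r => if r ∈ univ.filter (fun r => ∀ l, K r l = c) then
        x.elim (P (ρ r)) (fun i => f c i ^ q) else row l0 P f K ρ σ r := by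
    intro x
    funext r
    split_ifs with hr
    · exact row_update_eq l0 P f K ρ σ r c x (by simpa using hr)
    · refine row_update_ne l0 P f K ρ σ r c x (fun l hl => hr ?_)
      simpa using hc r l hl
  simp only [e1, Option.elim_some, Option.elim_none]
  exact h

/-- content -/
def cont (K : Fin a → Fin q → Fin a) (c : Fin a) : ℕ :=
  (univ.filter (fun p : Fin a × Fin q => K p.1 p.2 = c)).card

theorem cont_ge (K : Fin a → Fin q → Fin a) (c : Fin a) :
    q * (univ.filter (fun r => ∀ l, K r l = c)).card ≤ cont K c := by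
  have h : (univ.filter (fun r : Fin a => ∀ l, K r l = c)) ×ˢ (univ : Finset (Fin q)) ⊆
      univ.filter (fun p : Fin a × Fin q => K p.1 p.2 = c) := by
    intro p hp
    simp only [mem_product, mem_filter, mem_univ, true_and, and_true] at hp ⊢
    exact hp _
  have := Finset.card_le_card h
  rw [Finset.card_product, Finset.card_univ, Fintype.card_fin, mul_comm] at this
  exact this

theorem cont_good (K : Fin a → Fin q → Fin a) (c : Fin a) (hc : good K c) :
    cont K c = q * (univ.filter (fun r => ∀ l, K r l = c)).card := by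
  have h : univ.filter (fun p : Fin a × Fin q => K p.1 p.2 = c) =
      (univ.filter (fun r : Fin a => ∀ l, K r l = c)) ×ˢ (univ : Finset (Fin q)) := by
    ext p
    simp only [mem_product, mem_filter, mem_univ, true_and, and_true]
    exact ⟨fun h => hc _ _ h, fun h => h _⟩
  unfold cont
  rw [h, Finset.card_product, Finset.card_univ, Fintype.card_fin, mul_comm]

/-- the permutation of rows, class by class -/
theorem exists_rho (l0 : Fin q) (K : Fin a → Fin q → Fin a) (C : Fin a → Finset (Fin a))
    (hK : ∀ c, cont K c = q * (C c).card) :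
    ∃ ρ : Fin a → Fin a, ∀ c, good K c →
      Set.BijOn ρ ((univ.filter (fun r => ∀ l, K r l = c) : Finset (Fin a)) : Set (Fin a))
        (C c : Set (Fin a)) := by
  classical
  have hq : 0 < q := Fin.pos l0
  have h : ∀ c : Fin a, ∃ g : Fin a → Fin a, good K c →
      Set.BijOn g ((univ.filter (fun r => ∀ l, K r l = c) : Finset (Fin a)) : Set (Fin a))
        (C c : Set (Fin a)) := by
    intro c
    by_cases hc : good K c
    · have hcard : (univ.filter (fun r => ∀ l, K r l = c)).card = (C c).card := by
        have := cont_good K c hc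
        rw [hK c] at this
        exact (Nat.eq_of_mul_eq_mul_left hq this).symm
      obtain ⟨g, hg⟩ := exists_bijOn _ _ hcard
      exact ⟨g, fun _ => hg⟩
    · exact ⟨id, fun h => absurd h hc⟩
  choose g hg using h
  refine ⟨fun r => g (K r l0) r, fun c hc => ?_⟩
  refine (hg c hc).congr ?_
  intro r hr
  have : ∀ l, K r l = c := by simpa using hr
  simp only [this l0]

/-- the nonconstant rows -/
def NR (K : Fin a → Fin q → Fin a) : Finset (Fin a) :=
  univ.filter (fun r => ∃ l l', K r l ≠ K r l')

open Classical in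
theorem card_bad (K : Fin a → Fin q → Fin a) :
    (univ.filter (fun c => ¬ good K c)).card ≤ q * (NR K).card := by
  have h : univ.filter (fun c => ¬ good K c) ⊆
      ((NR K) ×ˢ (univ : Finset (Fin q))).image (fun p => K p.1 p.2) := by
    intro c hc
    simp only [mem_filter, mem_univ, true_and, good, not_forall] at hc
    obtain ⟨r, l, h1, l', h2⟩ := hc
    simp only [mem_image, mem_product, mem_univ, and_true, Prod.exists, NR, mem_filter, true_and]
    exact ⟨r, l, ⟨l, l', by rw [h1]; exact fun h => h2 h.symm⟩, h1⟩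
  refine (Finset.card_le_card h).trans (Finset.card_image_le.trans ?_)
  rw [Finset.card_product, Finset.card_univ, Fintype.card_fin, mul_comm]

open Classical in
theorem card_badrows (l0 : Fin q) (K : Fin a → Fin q → Fin a) (C : Fin a → Finset (Fin a)) (S : ℕ)
    (hC : ∀ c, (C c).card ≤ S) (hK : ∀ c, cont K c = q * (C c).card) :
    (univ.filter (fun r => r ∉ NR K ∧ ¬ good K (K r l0))).card ≤
      S * (univ.filter (fun c => ¬ good K c)).card := by
  have hq : 0 < q := Fin.pos l0
  refine Finset.card_le_mul_card_image_of_maps_to (f := fun r => K r l0) ?_ _ ?_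
  · intro r hr
    simp only [mem_filter, mem_univ, true_and] at hr ⊢
    exact hr.2
  · intro c hc
    refine le_trans ?_ (hC c)
    have h1 : ((univ.filter (fun r => r ∉ NR K ∧ ¬ good K (K r l0))).filter
        (fun r => K r l0 = c)) ⊆ univ.filter (fun r => ∀ l, K r l = c) := by
      intro r hr
      simp only [mem_filter, mem_univ, true_and, NR, not_exists, not_not] at hr ⊢
      intro l
      rw [hr.1.1 l l0, hr.2]
    refine (Finset.card_le_card h1).trans ?_
    have := cont_ge K c
    rw [hK c] at this
    exact Nat.le_of_mul_le_mul_left this hq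

open Classical in
theorem bound_K (l0 : Fin q) (P : Fin a → A) (f : Fin a → Fin J → A)
    (F : MultilinearMap ℂ (fun _ : Fin a => A) ℂ) (w : Fin a → Fin J → ℂ)
    (K : Fin a → Fin q → Fin a) (C : Fin a → Finset (Fin a)) (S : ℕ)
    (hC : ∀ c, (C c).card ≤ S) (hK : ∀ c, cont K c = q * (C c).card)
    (B Ω ε μ : ℝ) (hB : 1 ≤ B) (hΩ : 1 ≤ Ω) (hε : 0 ≤ ε) (hμ : 0 ≤ μ)
    (hw : ∀ c, ∑ j, ‖w c j‖ ≤ B)
    (hrep : ∀ (c : Fin a) (R : Finset (Fin a)) (ρ : Fin a → Fin a),
      Set.BijOn ρ R (C c : Set (Fin a)) → ∀ h : Fin a → A,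
      ∑ j, w c j * F (fun r => if r ∈ R then f c j ^ q else h r) =
        F (fun r => if r ∈ R then P (ρ r) else h r))
    (Ct : A → ℝ → Prop) (hP : ∀ i, Ct (P i) 1) (hf : ∀ c j, Ct (f c j ^ q) Ω)
    (hm : ∀ (k : Fin q → Fin a) (j : Fin a → Fin J), (∃ l l', k l ≠ k l') →
      Ct (∏ l, f (k l) (j (k l))) ε)
    (hF : ∀ (h : Fin a → A) (c : Fin a → ℝ), (∀ r, 0 ≤ c r) → (∀ r, Ct (h r) (c r)) →
      ‖F h‖ ≤ (∏ r, c r) * μ) :
    ‖∑ j : Fin a → Fin J, (∏ c, w c (j c)) * F (fun r => ∏ l, f (K r l) (j (K r l)))‖ ≤
      (ε * (B * Ω ^ S) ^ q) ^ (NR K).card * μ := by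
  obtain ⟨ρ, hρ⟩ := exists_rho l0 K C hK
  set I := univ.filter (fun c => ¬ good K c) with hI
  have h1 := states J B (zero_le_one.trans hB) a (fun σ => F (row l0 P f K ρ σ)) (good K) w
    ((ε ^ (NR K).card * Ω ^ (S * I.card)) * μ) (by positivity) hw ?_ ?_
  · simp only [show ∀ j : Fin a → Fin J, (row l0 P f K ρ fun c => some (j c)) =
      fun r => ∏ l, f (K r l) (j (K r l)) from fun j => funext fun r => row_some ..] at h1
    refine h1.trans ?_
    have h2 : (∏ c, if good K c then (1:ℝ) else B) = B ^ I.card := by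
      rw [Finset.prod_ite, Finset.prod_const_one, one_mul, Finset.prod_const]
    rw [h2]
    have h3 : (1:ℝ) ≤ B * Ω ^ S := one_le_mul_of_one_le_of_one_le hB (one_le_pow₀ hΩ)
    have h4 : (B * Ω ^ S) ^ I.card ≤ (B * Ω ^ S) ^ (q * (NR K).card) :=
      pow_le_pow_right₀ h3 (card_bad K)
    calc B ^ I.card * ((ε ^ (NR K).card * Ω ^ (S * I.card)) * μ)
        = ε ^ (NR K).card * (B * Ω ^ S) ^ I.card * μ := by rw [mul_pow, ← pow_mul]; ring
      _ ≤ ε ^ (NR K).card * (B * Ω ^ S) ^ (q * (NR K).card) * μ := by
          refine mul_le_mul_of_nonneg_right (mul_le_mul_of_nonneg_left h4 (by positivity)) hμ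
      _ = _ := by rw [pow_mul, ← mul_pow]
  · intro c hc σ
    exact rep_row l0 P f F w K ρ c hc (hrep c _ ρ (hρ c hc)) σ
  · intro σ hσ1 hσ2
    have h5 : ∀ r, Ct (row l0 P f K ρ σ r)
        (if r ∈ NR K then ε else if good K (K r l0) then 1 else Ω) := by
      intro r
      by_cases hr : r ∈ NR K
      · rw [if_pos hr]
        have hr' : ∃ l l', K r l ≠ K r l' := by simpa [NR] using hr
        have hbad : ∀ l, ¬ good K (K r l) := by
          intro l hg
          obtain ⟨l1, l2, h12⟩ := hr'
          exact h12 ((hg r l rfl l1).trans (hg r l rfl l2).symm)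
        have hn : ¬ ∀ l, K r l = K r l0 := by
          intro h
          obtain ⟨l1, l2, h12⟩ := hr'
          exact h12 ((h l1).trans (h l2).symm)
        obtain ⟨i0, hi0⟩ := Option.ne_none_iff_exists'.mp (hσ2 _ (hbad l0))
        have := hm (K r) (fun c => (σ c).getD i0) hr'
        convert this using 1
        unfold row
        rw [if_neg hn]
        refine Finset.prod_congr rfl fun l _ => ?_
        obtain ⟨i, hi⟩ := Option.ne_none_iff_exists'.mp (hσ2 _ (hbad l))
        simp [hi]
      · rw [if_neg hr]
        have hr' : ∀ l, K r l = K r l0 := by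
          intro l
          by_contra h
          exact hr (by simp only [NR, mem_filter, mem_univ, true_and]; exact ⟨l, l0, h⟩)
        by_cases hg : good K (K r l0)
        · rw [if_pos hg]
          have := hP (ρ r)
          convert this using 1
          unfold row
          rw [if_pos hr', hσ1 _ hg]
          rfl
        · rw [if_neg hg]
          obtain ⟨i, hi⟩ := Option.ne_none_iff_exists'.mp (hσ2 _ hg)
          have := hf (K r l0) i
          convert this using 1
          unfold row
          rw [if_pos hr', hi]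
          rfl
    refine (hF _ _ ?_ h5).trans ?_
    · intro r
      split_ifs
      · exact hε
      · exact zero_le_one
      · exact zero_le_one.trans hΩ
    · refine mul_le_mul_of_nonneg_right ?_ hμ
      rw [Finset.prod_ite, Finset.prod_const, Finset.prod_ite, Finset.prod_const_one, one_mul,
        Finset.prod_const]
      have e1 : (univ.filter (fun r => r ∈ NR K)) = NR K := by ext r; simp
      have e2 : ((univ.filter (fun r => r ∉ NR K)).filter (fun r => ¬ good K (K r l0))) =
        univ.filter (fun r => r ∉ NR K ∧ ¬ good K (K r l0)) := by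
        ext r; simp
      rw [e1, e2]
      exact mul_le_mul_of_nonneg_left (pow_le_pow_right₀ hΩ (card_badrows l0 K C S hC hK))
        (by positivity)

/-- all rows constant -/
theorem const_K (l0 : Fin q) (P : Fin a → A) (f : Fin a → Fin J → A)
    (F : MultilinearMap ℂ (fun _ : Fin a => A) ℂ) (hsy : Sy F) (w : Fin a → Fin J → ℂ)
    (K : Fin a → Fin q → Fin a) (cl : Fin a → Fin a)
    (hK : ∀ c, cont K c = q * (univ.filter (fun i => cl i = c)).card)
    (hrep : ∀ (c : Fin a) (R : Finset (Fin a)) (ρ : Fin a → Fin a),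
      Set.BijOn ρ R (univ.filter (fun i => cl i = c) : Finset (Fin a)) → ∀ h : Fin a → A,
      ∑ j, w c j * F (fun r => if r ∈ R then f c j ^ q else h r) =
        F (fun r => if r ∈ R then P (ρ r) else h r))
    (hcst : ¬ ∃ r l l', K r l ≠ K r l') :
    ∑ j : Fin a → Fin J, (∏ c, w c (j c)) * F (fun r => ∏ l, f (K r l) (j (K r l))) = F P := by
  have hcst' : ∀ r l l', K r l = K r l' := by
    intro r l l'
    by_contra h
    exact hcst ⟨r, l, l', h⟩
  have hgood : ∀ c, good K c := fun c r l h l' => by rw [← h]; exact hcst' r l' l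
  obtain ⟨ρ, hρ⟩ := exists_rho l0 K (fun c => univ.filter (fun i => cl i = c)) hK
  have h1 := states_all J a (fun σ => F (row l0 P f K ρ σ)) w
    (fun c σ => rep_row l0 P f F w K ρ c (hgood c) (hrep c _ ρ (hρ c (hgood c))) σ)
  simp only [show ∀ j : Fin a → Fin J, (row l0 P f K ρ fun c => some (j c)) =
      fun r => ∏ l, f (K r l) (j (K r l)) from fun j => funext fun r => row_some ..] at h1
  rw [h1]
  have hrow : row l0 P f K ρ (fun _ => none) = fun r => P (ρ r) := by
    funext r
    unfold row
    rw [if_pos (fun l => hcst' r l l0)]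
    rfl
  rw [hrow]
  have hcl : ∀ r, cl (ρ r) = K r l0 := by
    intro r
    have := (hρ (K r l0) (hgood _)).mapsTo (show r ∈ _ by simpa using fun l => hcst' r l l0)
    simpa using this
  have hinj : Function.Injective ρ := by
    intro r r' h
    have h2 : K r l0 = K r' l0 := by rw [← hcl, ← hcl, h]
    refine (hρ (K r l0) (hgood _)).injOn (show r ∈ _ by simpa using fun l => hcst' r l l0)
      (show r' ∈ _ by simpa [h2] using fun l => hcst' r' l l0) h
  exact hsy (Equiv.ofBijective ρ (Finite.injective_iff_bijective.mp hinj)) P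

end Vale.Agent.P181.H305
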